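import Mathlib
import Vale.Agent.Lib.P195.SyzFin

/-!
# P195: modules whose syzygies are built from finitely many modules, finite range of vanishing

`R` is any ring and `M` an `R`-module with a resolution by finitely generated projective
modules: modules `Z 0 ≅ M`, `Z 1`, `Z 2`, ... and short exact sequences
`0 → Z (j+1) → P j → Z j → 0` with every `P j` finitely generated projective.  Let
`V 0, ..., V (r - 1)` be `R`-modules and `n` a natural number such that every syzygy `Z j` with
`j ≥ n` is isomorphic to a finite direct sum of copies of the `V i` (written as the product over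
`i : Fin r` of `Fin (m i) → V i`).  If `Ext^i(M, M) = 0` for `1 ≤ i ≤ r` and `Ext^i(M, R) = 0` for
`1 ≤ i ≤ n + r + 1`, then `M` is projective.
-/

universe u

namespace Vale.Agent.Results.P195.FiniteSyzygyTypes

open CategoryTheory Abelian

theorem result (R : Type u) [Ring R]
    (M : Type u) [AddCommGroup M] [Module R M]
    (Z : ℕ → Type u) [∀ j, AddCommGroup (Z j)] [∀ j, Module R (Z j)]
    (P : ℕ → Type u) [∀ j, AddCommGroup (P j)] [∀ j, Module R (P j)]
    [∀ j, Module.Finite R (P j)] [∀ j, Module.Projective R (P j)]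
    (e : Z 0 ≃ₗ[R] M)
    (ι : ∀ j, Z (j + 1) →ₗ[R] P j) (π : ∀ j, P j →ₗ[R] Z j)
    (hι : ∀ j, Function.Injective (ι j)) (hπ : ∀ j, Function.Surjective (π j))
    (hex : ∀ j, LinearMap.range (ι j) = LinearMap.ker (π j))
    (r n : ℕ) (V : Fin r → Type u) [∀ i, AddCommGroup (V i)] [∀ i, Module R (V i)]
    (hV : ∀ j, n ≤ j → ∃ m : Fin r → ℕ,
      Nonempty (Z j ≃ₗ[R] ((i : Fin r) → Fin (m i) → V i)))
    (hMM : ∀ i : ℕ, 1 ≤ i → i ≤ r →
      Subsingleton (Ext (ModuleCat.of R M) (ModuleCat.of R M) i))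
    (hMR : ∀ i : ℕ, 1 ≤ i → i ≤ n + r + 1 →
      Subsingleton (Ext (ModuleCat.of R M) (ModuleCat.of R R) i)) :
    Module.Projective R M :=
  Vale.Agent.Lib.P195.projective_of_syzygy_finite M Z P e ι π hι hπ hex r n V hV hMM hMR

end Vale.Agent.Results.P195.FiniteSyzygyTypes
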