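import Mathlib
import Vale.Agent.Lib.P195.GMain

/-!
# P195: the Auslander-Reiten conjecture for Artin algebras with radical cube zero

`R` is a ring that is module-finite over a commutative Artinian ring `k` mapping into its centre
(an Artin algebra), and the cube of its Jacobson radical is zero.  `R` need not be local,
commutative or self-injective.  If a finitely generated left `R`-module `M` satisfies
`Ext^i(M, M) = 0` and `Ext^i(M, R) = 0` for every `i ≥ 1`, then `M` is projective.
-/

universe u

namespace Vale.Agent.Results.P195.RadCubeZero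

open CategoryTheory Abelian

theorem result (k : Type*) [CommRing k] [IsArtinianRing k]
    (R : Type u) [Ring R] [Algebra k R] [Module.Finite k R]
    (hJ : ∀ a ∈ Ring.jacobson R, ∀ b ∈ Ring.jacobson R, ∀ c ∈ Ring.jacobson R, a * b * c = 0)
    (M : Type u) [AddCommGroup M] [Module R M] [Module.Finite R M]
    (hMM : ∀ i : ℕ, 1 ≤ i → Subsingleton (Ext (ModuleCat.of R M) (ModuleCat.of R M) i))
    (hMR : ∀ i : ℕ, 1 ≤ i → Subsingleton (Ext (ModuleCat.of R M) (ModuleCat.of R R) i)) :
    Module.Projective R M :=
  Vale.Agent.Lib.P195.ar_radCube k R hJ M hMM hMR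

end Vale.Agent.Results.P195.RadCubeZero
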