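import Mathlib
import Vale.Agent.Lib.P195.GMainB

/-!
# P195: Artin algebras with radical cube zero, finite range of vanishing

`R` is a ring that is module-finite over a commutative Artinian ring `k` mapping into its centre
(an Artin algebra), and the cube of its Jacobson radical is zero.  `R` need not be local,
commutative or self-injective.  Let `S 0, ..., S (s - 1)` be a list of `R`-modules such that every
simple `R`-module is isomorphic to a member of the list (so `R` has at most `s` simple modules up
to isomorphism).  If a finitely generated left `R`-module `M` satisfies `Ext^i(M, M) = 0` and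
`Ext^i(M, R) = 0` for `1 ≤ i ≤ 2 s + 2`, then `M` is projective.  For a local ring one can take
`s = 1`, and the range is `1 ≤ i ≤ 4`.
-/

universe u

namespace Vale.Agent.Results.P195.RadCubeZeroRange

open CategoryTheory Abelian

theorem result (k : Type*) [CommRing k] [IsArtinianRing k]
    (R : Type u) [Ring R] [Algebra k R] [Module.Finite k R]
    (hJ : ∀ a ∈ Ring.jacobson R, ∀ b ∈ Ring.jacobson R, ∀ c ∈ Ring.jacobson R, a * b * c = 0)
    (s : ℕ) (S : Fin s → Type u) [∀ i, AddCommGroup (S i)] [∀ i, Module R (S i)]
    (hS : ∀ (T : Type u) [AddCommGroup T] [Module R T], IsSimpleModule R T →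
      ∃ i, Nonempty (T ≃ₗ[R] S i))
    (M : Type u) [AddCommGroup M] [Module R M] [Module.Finite R M]
    (hMM : ∀ i : ℕ, 1 ≤ i → i ≤ 2 * s + 2 →
      Subsingleton (Ext (ModuleCat.of R M) (ModuleCat.of R M) i))
    (hMR : ∀ i : ℕ, 1 ≤ i → i ≤ 2 * s + 2 →
      Subsingleton (Ext (ModuleCat.of R M) (ModuleCat.of R R) i)) :
    Module.Projective R M :=
  Vale.Agent.Lib.P195.ar_radCube_range k R hJ s S hS M hMM hMR

end Vale.Agent.Results.P195.RadCubeZeroRange
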