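import Mathlib
import Vale.Agent.Lib.P195.GMainB
import Vale.Agent.Lib.P195.SyzFin

/-!
# P195: two classes of Artin algebras, finite range of vanishing

`R` is a ring that is module-finite over a commutative Artinian ring `k` mapping into its centre
(an Artin algebra) and `M` is a finitely generated `R`-module.

1. If the cube of the Jacobson radical of `R` is zero, every simple `R`-module is isomorphic to
   one of `s` given modules, and `Ext^i(M, M) = 0`, `Ext^i(M, R) = 0` for `1 ≤ i ≤ 2 s + 2`,
   then `M` is projective.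
2. If `V 0, ..., V (r - 1)` are `R`-modules and `n` is a natural number such that for every
   sequence of short exact sequences `0 → Z (j+1) → P j → Z j → 0` with all `P j` finitely
   generated projective every `Z j` with `j ≥ n` is a finite direct sum of copies of the `V i`,
   and `Ext^i(M, M) = 0` for `1 ≤ i ≤ r`, `Ext^i(M, R) = 0` for `1 ≤ i ≤ n + r + 1`, then `M` is
   projective.
-/

universe u v

namespace Vale.Agent.Results.P195.TwoClassesFiniteRange

open CategoryTheory Abelian

theorem result :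
    (∀ (k : Type v) [CommRing k] [IsArtinianRing k]
      (R : Type u) [Ring R] [Algebra k R] [Module.Finite k R],
      (∀ a ∈ Ring.jacobson R, ∀ b ∈ Ring.jacobson R, ∀ c ∈ Ring.jacobson R, a * b * c = 0) →
      ∀ (s : ℕ) (S : Fin s → Type u) [∀ i, AddCommGroup (S i)] [∀ i, Module R (S i)],
      (∀ (T : Type u) [AddCommGroup T] [Module R T], IsSimpleModule R T →
        ∃ i, Nonempty (T ≃ₗ[R] S i)) →
      ∀ (M : Type u) [AddCommGroup M] [Module R M] [Module.Finite R M],
      (∀ i : ℕ, 1 ≤ i → i ≤ 2 * s + 2 →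
        Subsingleton (Ext (ModuleCat.of R M) (ModuleCat.of R M) i)) →
      (∀ i : ℕ, 1 ≤ i → i ≤ 2 * s + 2 →
        Subsingleton (Ext (ModuleCat.of R M) (ModuleCat.of R R) i)) →
      Module.Projective R M) ∧
    (∀ (k : Type v) [CommRing k] [IsArtinianRing k]
      (R : Type u) [Ring R] [Algebra k R] [Module.Finite k R]
      (r n : ℕ) (V : Fin r → Type u) [∀ i, AddCommGroup (V i)] [∀ i, Module R (V i)],
      (∀ (Z : ℕ → Type u) [∀ j, AddCommGroup (Z j)] [∀ j, Module R (Z j)]
        (P : ℕ → Type u) [∀ j, AddCommGroup (P j)] [∀ j, Module R (P j)]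
        [∀ j, Module.Finite R (P j)] [∀ j, Module.Projective R (P j)]
        (ι : ∀ j, Z (j + 1) →ₗ[R] P j) (π : ∀ j, P j →ₗ[R] Z j),
        (∀ j, Function.Injective (ι j)) → (∀ j, Function.Surjective (π j)) →
        (∀ j, LinearMap.range (ι j) = LinearMap.ker (π j)) →
        ∀ j, n ≤ j → ∃ m : Fin r → ℕ, Nonempty (Z j ≃ₗ[R] ((i : Fin r) → Fin (m i) → V i))) →
      ∀ (M : Type u) [AddCommGroup M] [Module R M] [Module.Finite R M],
      (∀ i : ℕ, 1 ≤ i → i ≤ r →
        Subsingleton (Ext (ModuleCat.of R M) (ModuleCat.of R M) i)) →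
      (∀ i : ℕ, 1 ≤ i → i ≤ n + r + 1 →
        Subsingleton (Ext (ModuleCat.of R M) (ModuleCat.of R R) i)) →
      Module.Projective R M) := by
  refine ⟨?_, ?_⟩
  · intro k _ _ R _ _ _ hJ s S _ _ hS M _ _ _ hMM hMR
    exact Vale.Agent.Lib.P195.ar_radCube_range k R hJ s S hS M hMM hMR
  · intro k _ _ R _ _ _ r n V _ _ hV M _ _ _ hMM hMR
    exact Vale.Agent.Lib.P195.ar_syzygy_finite k R r n V hV M hMM hMR

end Vale.Agent.Results.P195.TwoClassesFiniteRange
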